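import Vale.Agent.P207.N3.Top.Orb
import Vale.Agent.P207.N3.H147.Axis

/-!
# P207, line N3 (P4, E3, piece C1): the axes of `k β^m`

For a closed orbit `o` with element `β` and for `k` with `k β⁺ ≠ β⁻`, the elements `θ_m = k β^m`
are nontrivial for large `m`; their repelling fixed points converge to `β⁻`, their attracting
fixed points to `k β⁺`, and their periods minus `m l` converge to
`lv (hol β⁻ (k • x)) - lv x`.
-/

open Set Filter Topology Metric MeasureTheory
open scoped ContDiff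

noncomputable section

namespace Vale.Agent.P207.N3.H283

variable {Γ X B : Type} [Group Γ] [MetricSpace X] [ProperSpace X] [MulAction Γ X]
  [IsIsometricSMul Γ X] [TopologicalSpace B] [CompactSpace B] [T2Space B] [MulAction Γ B]
  [ContinuousConstSMul Γ B] {L : Leaf Γ X B}

open H147

/-- a third point of the boundary -/
theorem exists_third (L : Leaf Γ X B) (x : X) (κ : B) : ∃ κ', κ' ≠ κ ∧ κ' ≠ L.em x := by
  have h0 : (0 : E2) ∈ closedBall (0 : E2) 3 := by simp
  have h1 : (EuclideanSpace.single 0 (1 : ℝ) : E2) ∈ closedBall (0 : E2) 3 := by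
    rw [mem_closedBall, dist_zero_right, PiLp.norm_single]
    norm_num
  have hne : L.e x 0 ≠ L.e x (EuclideanSpace.single 0 (1 : ℝ)) := fun h => by
    have h2 := L.e_inj x h0 h1 h
    have h3 : ‖(EuclideanSpace.single 0 (1 : ℝ) : E2)‖ = 0 := by rw [← h2, norm_zero]
    rw [PiLp.norm_single] at h3
    norm_num at h3
  by_cases h : L.e x 0 = κ
  · exact ⟨_, fun h' => hne (h.trans h'.symm), L.e_ne x _ h1⟩
  · exact ⟨_, h, L.e_ne x _ h0⟩

/-- All axes of `k β^m`, for large `m`: the end points are close to `β⁻` and `k β⁺`. -/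
theorem axis_near (o : Orb L) (k : Γ) (hk : k • o.pos ≠ o.neg) {U V : Set B}
    (hU : U ∈ 𝓝 o.neg) (hV : V ∈ 𝓝 (k • o.pos)) :
    ∀ᶠ m : ℕ in atTop, k * o.β ^ m ≠ 1 ∧
      ∀ (z : X) (l : ℝ) (a : O2), L.IsAxis (k * o.β ^ m) z l a → L.em z ∈ U ∧ L.ep z ∈ V := by
  obtain ⟨κ', h1, h2⟩ := exists_third L o.x (k • o.pos)
  -- the closed neighbourhood of `κ`
  have hn : V ∩ {o.neg, κ'}ᶜ ∈ 𝓝 (k • o.pos) := by
    refine inter_mem hV ((Set.toFinite _).isClosed.isOpen_compl.mem_nhds ?_)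
    rintro (h | h)
    · exact hk h
    · exact h1 h.symm
  obtain ⟨P, hP, hPc, hPs⟩ := exists_mem_nhds_isClosed_subset hn
  have hPneg : o.neg ∉ P := fun h => (hPs h).2 (Or.inl rfl)
  have hPκ : κ' ∉ P := fun h => (hPs h).2 (Or.inr rfl)
  -- the closed neighbourhood of `β⁻`
  have hn' : U ∩ (Pᶜ ∩ {κ'}ᶜ) ∈ 𝓝 o.neg := by
    refine inter_mem hU (inter_mem (hPc.isOpen_compl.mem_nhds hPneg)
      (isClosed_singleton.isOpen_compl.mem_nhds ?_))
    exact fun h => h2 h.symm
  obtain ⟨C, hC, hCc, hCs⟩ := exists_mem_nhds_isClosed_subset hn'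
  have hPK : P ⊆ (interior C)ᶜ := fun p hp h => (hCs (interior_subset h)).2.1 hp
  have hκK : κ' ∈ (interior C)ᶜ := fun h => (hCs (interior_subset h)).2.2 rfl
  have hK : IsCompact (interior C)ᶜ := isOpen_interior.isClosed_compl.isCompact
  have hW : (fun ζ : B => k • ζ) ⁻¹' P ∈ 𝓝 o.pos :=
    (continuous_const_smul k).continuousAt hP
  have hN := Ax.north o.ax hK (fun h => h (mem_interior_iff_mem_nhds.2 hC)) hW
  filter_upwards [hN] with m hm
  have hθ : ∀ ζ ∈ (interior C)ᶜ, (k * o.β ^ m) • ζ ∈ P := fun ζ hζ => by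
    rw [mul_smul]; exact hm ζ hζ
  refine ⟨fun h => ?_, fun z l a hz => ?_⟩
  · have h3 := hθ κ' hκK
    rw [h, one_smul] at h3
    exact hPκ h3
  · set θ := k * o.β ^ m with hθd
    have hpow : ∀ ζ ∈ (interior C)ᶜ, ∀ n : ℕ, 1 ≤ n → θ ^ n • ζ ∈ P := by
      intro ζ hζ n hn
      induction n, hn using Nat.le_induction with
      | base => rw [pow_one]; exact hθ ζ hζ
      | succ n _ ih => rw [pow_succ', mul_smul]; exact hθ _ (hPK ih)
    have hep : L.ep z ∈ P := by
      obtain ⟨p, hp, hpz⟩ : ∃ p ∈ (interior C)ᶜ, p ≠ L.em z := by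
        by_cases h : κ' = L.em z
        · exact ⟨k • o.pos, hPK (mem_of_mem_nhds hP), fun h' => h1 (h.trans h'.symm)⟩
        · exact ⟨κ', hκK, h⟩
      by_contra hcon
      have h3 := Ax.north hz (K := {p}) isCompact_singleton
        (fun h => hpz (mem_singleton_iff.1 h).symm) (hPc.isOpen_compl.mem_nhds hcon)
      obtain ⟨n, hn, hn1⟩ := (h3.and (eventually_ge_atTop 1)).exists
      exact hn p rfl (hpow p hp n hn1)
    refine ⟨?_, (hPs hep).1⟩
    have hinv : ∀ ζ, ζ ∉ P → θ⁻¹ • ζ ∈ interior C := by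
      intro ζ hζ
      by_contra hcon
      have := hθ _ hcon
      rw [smul_inv_smul] at this
      exact hζ this
    have hIP : ∀ ζ ∈ interior C, ζ ∉ P := fun ζ hζ h => hPK h hζ
    have hinvpow : ∀ n : ℕ, (θ ^ n)⁻¹ • o.neg ∈ interior C := by
      intro n
      induction n with
      | zero => simpa using mem_interior_iff_mem_nhds.2 hC
      | succ n ih =>
        have e : (θ ^ (n + 1))⁻¹ • o.neg = θ⁻¹ • ((θ ^ n)⁻¹ • o.neg) := by
          rw [pow_succ, mul_inv_rev, mul_smul]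
        rw [e]
        exact hinv _ (hIP _ ih)
    have hemC : L.em z ∈ C := by
      by_contra hcon
      have h3 := Ax.south hz (K := {o.neg}) isCompact_singleton
        (fun h => hPneg ((mem_singleton_iff.1 h) ▸ hep)) (hCc.isOpen_compl.mem_nhds hcon)
      obtain ⟨n, hn⟩ := h3.exists
      exact hn o.neg rfl (interior_subset (hinvpow n))
    exact (hCs hemC).1

/-- The period of an axis of `k β^m`. -/
theorem period_eq (o : Orb L) (k : Γ) (m : ℕ) {z : X} {l : ℝ} {a : O2}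
    (hz : L.IsAxis (k * o.β ^ m) z l a) (h1 : L.em z ≠ o.pos) (h2 : L.em z ≠ k • o.pos) :
    l - m * o.l = L.lv (L.hol (L.em z) (k • o.x)) - L.lv (L.hol (L.em z) o.x) := by
  have e1 : L.em (L.hol (L.em z) o.x) = L.em z := L.hol_em _ _ h1
  have e2 := Ax.lv_smul hz e1
  have e3 := L.hol_smul (k * o.β ^ m) (L.em z) o.x h1
  rw [Ax.smul_em hz] at e3
  have e4 : (k * o.β ^ m) • o.x = L.φ (m * o.l) (L.rot (o.a ^ m) (k • o.x)) := by
    rw [mul_smul, Ax.pow_smul o.ax, L.rot_smul, L.φ_smul]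
  have e5 : L.em z ≠ L.ep (k • o.x) := by rw [ep_smul]; exact h2
  rw [e4, L.hol_φ _ _ _ (by rw [ep_rot]; exact e5), L.hol_rot _ _ _ e5] at e3
  rw [← e3, L.lv_φ, L.lv_rot] at e2
  linarith

theorem tendsto_lv_hol (y : X) {ξ : B} (hξ : ξ ≠ L.ep y) {f : ℕ → B}
    (hf : Tendsto f atTop (𝓝 ξ)) :
    Tendsto (fun m => L.lv (L.hol (f m) y)) atTop (𝓝 (L.lv (L.hol ξ y))) := by
  have hop : IsOpen {p : B × X | p.1 ≠ L.ep p.2} :=
    isOpen_ne_fun continuous_fst ((ep_cont L).comp continuous_snd)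
  have h1 : ContinuousAt (fun p : B × X => L.hol p.1 p.2) (ξ, y) :=
    L.hol_cont.continuousAt (hop.mem_nhds hξ)
  have h2 : Tendsto (fun m => (f m, y)) atTop (𝓝 (ξ, y)) := hf.prodMk_nhds tendsto_const_nhds
  exact (L.lv_cont.tendsto _).comp (h1.tendsto.comp h2)

/-- **The axes of `k β^m`** (790's piece C1). -/
theorem exists_axis_seq (o : Orb L) (k : Γ) (hk : k • o.pos ≠ o.neg) :
    ∃ (z : ℕ → X) (lz : ℕ → ℝ) (az : ℕ → O2),
      (∀ᶠ m in atTop, L.IsAxis (k * o.β ^ m) (z m) (lz m) (az m)) ∧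
      Tendsto (fun m => L.em (z m)) atTop (𝓝 o.neg) ∧
      Tendsto (fun m => L.ep (z m)) atTop (𝓝 (k • o.pos)) ∧
      Tendsto (fun m => lz m - m * o.l) atTop
        (𝓝 (L.lv (L.hol o.neg (k • o.x)) - L.lv o.x)) := by
  have hex : ∀ m : ℕ, ∃ (z : X) (l : ℝ) (a : O2), k * o.β ^ m ≠ 1 →
      L.IsAxis (k * o.β ^ m) z l a := by
    intro m
    by_cases h : k * o.β ^ m = 1
    · exact ⟨o.x, 0, 1, fun h' => absurd h h'⟩
    · obtain ⟨x, l, a, hl, hx⟩ := L.exists_axis _ h
      exact ⟨x, l, a, fun _ => ⟨hl, hx⟩⟩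
  choose z lz az hz using hex
  have hax : ∀ᶠ m in atTop, L.IsAxis (k * o.β ^ m) (z m) (lz m) (az m) := by
    filter_upwards [axis_near o k hk univ_mem univ_mem] with m hm
    exact hz m hm.1
  have hem : Tendsto (fun m => L.em (z m)) atTop (𝓝 o.neg) := by
    refine tendsto_def.2 fun U hU => ?_
    filter_upwards [axis_near o k hk hU univ_mem] with m hm
    exact (hm.2 _ _ _ (hz m hm.1)).1
  have hep : Tendsto (fun m => L.ep (z m)) atTop (𝓝 (k • o.pos)) := by
    refine tendsto_def.2 fun V hV => ?_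
    filter_upwards [axis_near o k hk univ_mem hV] with m hm
    exact (hm.2 _ _ _ (hz m hm.1)).2
  refine ⟨z, lz, az, hax, hem, hep, ?_⟩
  have hkx : o.neg ≠ L.ep (k • o.x) := by rw [ep_smul]; exact hk.symm
  have h1 := tendsto_lv_hol (L := L) (k • o.x) hkx hem
  have h2 := tendsto_lv_hol (L := L) o.x (ξ := o.neg) o.neg_ne_pos hem
  have e : L.hol o.neg o.x = o.x := L.hol_self o.x
  rw [e] at h2
  refine (h1.sub h2).congr' ?_
  filter_upwards [hax, hem.eventually_ne o.neg_ne_pos, hem.eventually_ne hk.symm] with m a1 a2 a3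
  exact (period_eq o k m a1 a2 a3).symm

end Vale.Agent.P207.N3.H283
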