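import Vale.Agent.P207.N3.H469.Chn
import Vale.Agent.P207.N3.H545.Lim
import Vale.Agent.P207.N3.Top.Defs

/-!
# The dichotomy, first half (helper283, line N3 of P207)

If `E^s` is `C^{k+1}` on one open piece of one unstable leaf (`k` large) then it is `C^k` on all
discs of radius `2`, with one bound.
-/

set_option maxSynthPendingDepth 3

open Set Filter Topology Metric
open scoped ContDiff

noncomputable section

namespace Vale.Agent.P207.N3.H283

open Vale.Agent.P207.N3 Vale.Agent.P207.N3.H545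

variable {Γ X B : Type} [Group Γ] [MetricSpace X] [ProperSpace X] [MulAction Γ X]
  [IsIsometricSMul Γ X] [TopologicalSpace B] [CompactSpace B] [T2Space B] [MulAction Γ B]
  [ContinuousConstSMul Γ B]

variable {L : Leaf Γ X B}

theorem ball_two_three : ball (0 : E2) 2 ⊆ ball 0 3 := ball_subset_ball (by norm_num)

/-- images of open subsets of the disc are open -/
theorem isOpen_image_of (y : X) {U : Set E2} (hU : IsOpen U) (hU3 : U ⊆ ball 0 3) :
    IsOpen (L.e y '' U) := by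
  have h1 : L.e y '' U = L.e y '' ball 0 3 \ L.e y '' (closedBall 0 3 \ U) := by
    ext b
    constructor
    · rintro ⟨u, hu, rfl⟩
      refine ⟨⟨u, hU3 hu, rfl⟩, ?_⟩
      rintro ⟨v, ⟨hv, hvU⟩, he⟩
      exact hvU (by rwa [L.e_inj y hv (ball_subset_closedBall (hU3 hu)) he])
    · rintro ⟨⟨u, hu, rfl⟩, h2⟩
      by_contra h3
      exact h2 ⟨u, ⟨ball_subset_closedBall hu, fun h4 => h3 ⟨u, h4, rfl⟩⟩, rfl⟩
  rw [h1]
  have hc : IsCompact (closedBall (0 : E2) 3 \ U) := (isCompact_closedBall _ _).diff hU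
  exact (isOpen_image L y).sdiff
    (hc.image_of_continuousOn ((e_contOn L y).mono sdiff_subset)).isClosed

/-- the compact set of frames of the leaf of `y` over a compact piece, at bounded level -/
def Wset (L : Leaf Γ X B) (y : X) (K : Set E2) (c : ℝ) : Set X :=
  {w | (L.em w, L.ep w) ∈ ({L.em y} : Set B) ×ˢ (L.e y '' K) ∧ |L.lv w| ≤ c}

theorem isCompact_Wset (y : X) {K : Set E2} (hK : IsCompact K) (hK3 : K ⊆ closedBall 0 3)
    (c : ℝ) : IsCompact (Wset L y K c) := by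
  refine L.hopf_proper _ (isCompact_singleton.prod
    (hK.image_of_continuousOn ((e_contOn L y).mono hK3))) ?_ c
  rintro ⟨a, b⟩ ⟨ha, u, hu, hb⟩
  simp only [mem_singleton_iff] at ha
  simp only at hb ⊢
  rw [ha, ← hb]
  exact (L.e_ne y u (hK3 hu)).symm

/-- a uniform radius -/
theorem exists_radius (y : X) {K U : Set E2} (hK : IsCompact K) (hU : IsOpen U) (hKU : K ⊆ U)
    (hU3 : U ⊆ ball 0 3) (c : ℝ) : ∃ r > 0, r < 3 ∧ ∀ w ∈ Wset L y K c,
      ∀ u ∈ closedBall (0 : E2) r, L.e w u ∈ L.e y '' U := by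
  have hK3 : K ⊆ closedBall 0 3 := (hKU.trans hU3).trans ball_subset_closedBall
  have hcont : ContinuousOn (fun p : X × E2 => L.e p.1 p.2) (univ ×ˢ ball 0 3) :=
    L.e_cont.mono (prod_mono_right ball_subset_closedBall)
  have hopen : IsOpen ((univ ×ˢ ball (0 : E2) 3) ∩ (fun p : X × E2 => L.e p.1 p.2) ⁻¹'
      (L.e y '' U)) := hcont.isOpen_inter_preimage (isOpen_univ.prod isOpen_ball)
    (isOpen_image_of y hU hU3)
  obtain ⟨u, v, -, hv, hWu, h0v, huv⟩ := generalized_tube_lemma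
    (isCompact_Wset (L := L) y hK hK3 c) (isCompact_singleton (x := (0 : E2))) hopen (by
      rintro ⟨w, z⟩ ⟨hw, hz⟩
      simp only [mem_singleton_iff] at hz
      subst hz
      refine ⟨⟨mem_univ _, mem_ball_self (by norm_num)⟩, ?_⟩
      simp only [mem_preimage]
      rw [L.e_zero]
      obtain ⟨z, hz, he⟩ := hw.1.2
      exact ⟨z, hKU hz, he⟩)
  obtain ⟨ε, hε, hεv⟩ := Metric.isOpen_iff.1 hv 0 (h0v rfl)
  refine ⟨min (ε / 2) 1, by positivity, (min_le_right _ _).trans_lt (by norm_num), ?_⟩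
  intro w hw z hz
  have h1 : z ∈ ball (0 : E2) ε := by
    rw [mem_closedBall] at hz
    rw [mem_ball]
    have := min_le_left (ε / 2) 1
    linarith
  exact (huv (⟨hWu hw, hεv h1⟩ : (w, z) ∈ u ×ˢ v)).2

/-- the transformation of `N`, solved for the first frame -/
theorem N_trans (T : Tens L) {x y : X} (h : L.em x = L.em y) {u : E2} (hu : u ∈ L.dm x y) :
    T.N x u = conjT (Ring.inverse (fderiv ℝ (L.τ x y) u)) (T.N y (L.τ x y u)) +
      -conjT (Ring.inverse (fderiv ℝ (L.τ x y) u)) (T.R x y u) := by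
  have h1 := T.R_eq x y h u hu
  have h2 : Ring.inverse (fderiv ℝ (L.τ x y) u) * fderiv ℝ (L.τ x y) u = 1 :=
    Ring.inverse_mul_cancel _ (isUnit_fderiv_tau L h hu)
  set D := fderiv ℝ (L.τ x y) u with hD
  set S := Ring.inverse D with hS
  have h3 : star D * star S = 1 := by rw [← star_mul, h2, star_one]
  rw [h1]
  have e1 : D ∘L T.N x u ∘L ContinuousLinearMap.adjoint D = D * T.N x u * star D := by
    rw [ContinuousLinearMap.star_eq_adjoint, mul_assoc]; rfl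
  rw [e1, ← sub_eq_add_neg, ← map_sub, add_sub_cancel_right, conjT_apply]
  calc T.N x u = 1 * T.N x u * 1 := by rw [one_mul, mul_one]
    _ = (S * D) * T.N x u * (star D * star S) := by rw [h2, h3]
    _ = S * (D * T.N x u * star D) * star S := by noncomm_ring

/-- bounds of `N` near the centres of the discs of a compact family -/
theorem exists_bound_near (T : Tens L) (k : ℕ) (y : X) {K U : Set E2} (hK : IsCompact K)
    (hU : IsOpen U) (hKU : K ⊆ U) (hU3 : U ⊆ ball 0 3) {M : ℝ}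
    (hN : H828.CkB k (fun _ => M) U (T.N y)) (c : ℝ) :
    ∃ r > 0, ∃ C : ℝ, ∀ w ∈ Wset L y K c, CkB k r C (T.N w) := by
  obtain ⟨r, hr, hr3, hrU⟩ := exists_radius (L := L) y hK hU hKU hU3 c
  have hK3 : K ⊆ closedBall 0 3 := (hKU.trans hU3).trans ball_subset_closedBall
  have hWc := isCompact_Wset (L := L) y hK hK3 c
  have hcomp : IsCompact (Wset L y K c ×ˢ closedBall (0 : E2) r) :=
    hWc.prod (isCompact_closedBall _ _)
  have hem : ∀ w ∈ Wset L y K c, L.em w = L.em y := fun w hw => hw.1.1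
  have hr3' : closedBall (0 : E2) r ⊆ ball 0 3 := closedBall_subset_ball hr3
  have hdm : ∀ w ∈ Wset L y K c, ∀ u ∈ closedBall (0 : E2) r, u ∈ L.dm w y := fun w hw u hu => by
    obtain ⟨v, hv, he⟩ := hrU w hw u hu
    exact ⟨hr3' hu, v, hU3 hv, he⟩
  have hτU : ∀ w ∈ Wset L y K c, ∀ u ∈ closedBall (0 : E2) r, L.τ w y u ∈ U := fun w hw u hu => by
    obtain ⟨v, hv, he⟩ := hrU w hw u hu
    rw [tau_eq_of L (ball_subset_closedBall (hU3 hv)) he]
    exact hv
  have hmap : Continuous fun p : X × E2 => (((p.1, y), p.2) : (X × X) × E2) := by fun_prop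
  have hmaps : MapsTo (fun p : X × E2 => (((p.1, y), p.2) : (X × X) × E2))
      (Wset L y K c ×ˢ closedBall (0 : E2) r)
      {p | L.em p.1.1 = L.em p.1.2 ∧ p.2 ∈ L.dm p.1.1 p.1.2} := fun p hp =>
    ⟨hem p.1 hp.1, hdm p.1 hp.1 p.2 hp.2⟩
  -- bounds of the transition maps
  have hτb : ∀ i : ℕ, ∃ C : ℝ, ∀ w ∈ Wset L y K c, ∀ u ∈ closedBall (0 : E2) r,
      ‖iteratedFDeriv ℝ i (L.τ w y) u‖ ≤ C := fun i => by
    obtain ⟨C, hC⟩ := hcomp.exists_bound_of_continuousOn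
      ((L.tau_cont i).comp hmap.continuousOn hmaps)
    exact ⟨C, fun w hw u hu => hC (w, u) ⟨hw, hu⟩⟩
  have hRb : ∀ i : ℕ, ∃ C : ℝ, ∀ w ∈ Wset L y K c, ∀ u ∈ closedBall (0 : E2) r,
      ‖iteratedFDeriv ℝ i (T.R w y) u‖ ≤ C := fun i => by
    obtain ⟨C, hC⟩ := hcomp.exists_bound_of_continuousOn
      ((T.R_cont i).comp hmap.continuousOn hmaps)
    exact ⟨C, fun w hw u hu => hC (w, u) ⟨hw, hu⟩⟩
  choose Kτ hKτ using hτb
  choose KR hKR using hRb
  -- bound of the inverse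
  obtain ⟨b, hb⟩ : ∃ b : ℝ, ∀ w ∈ Wset L y K c, ∀ u ∈ closedBall (0 : E2) r,
      ‖Ring.inverse (fderiv ℝ (L.τ w y) u)‖ ≤ b := by
    have hc1 : ContinuousOn (fun p : X × E2 => fderiv ℝ (L.τ p.1 y) p.2)
        (Wset L y K c ×ˢ closedBall (0 : E2) r) :=
      (continuousOn_fderiv_tau L).comp hmap.continuousOn hmaps
    have hc2 : ContinuousOn (fun p : X × E2 => Ring.inverse (fderiv ℝ (L.τ p.1 y) p.2))
        (Wset L y K c ×ˢ closedBall (0 : E2) r) := by
      rintro ⟨w, u⟩ hp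
      obtain ⟨v, hv⟩ := isUnit_fderiv_tau L (hem w hp.1) (hdm w hp.1 u hp.2)
      have h1 : ContinuousAt Ring.inverse (fderiv ℝ (L.τ w y) u) := by
        rw [← hv]; exact NormedRing.inverse_continuousAt v
      exact ContinuousAt.comp_continuousWithinAt (g := Ring.inverse)
        (f := fun p : X × E2 => fderiv ℝ (L.τ p.1 y) p.2) h1 (hc1 (w, u) hp)
    obtain ⟨b, hb⟩ := hcomp.exists_bound_of_continuousOn hc2
    exact ⟨b, fun w hw u hu => hb (w, u) ⟨hw, hu⟩⟩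
  set cτ : ℝ := ∑ i ∈ Finset.range (k + 2), |Kτ i| with hcτ
  set cR : ℝ := ∑ i ∈ Finset.range (k + 2), |KR i| with hcR
  have hcτ0 : 0 ≤ cτ := Finset.sum_nonneg fun _ _ => abs_nonneg _
  have hcR0 : 0 ≤ cR := Finset.sum_nonneg fun _ _ => abs_nonneg _
  have leτ : ∀ i ≤ k + 1, Kτ i ≤ cτ := fun i hi => (le_abs_self _).trans
    (Finset.single_le_sum (f := fun i => |Kτ i|) (fun _ _ => abs_nonneg _)
      (Finset.mem_range.mpr (Nat.lt_succ_of_le hi)))
  have leR : ∀ i ≤ k + 1, KR i ≤ cR := fun i hi => (le_abs_self _).trans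
    (Finset.single_le_sum (f := fun i => |KR i|) (fun _ _ => abs_nonneg _)
      (Finset.mem_range.mpr (Nat.lt_succ_of_le hi)))
  obtain ⟨KI, hKI0, hKI⟩ := exists_inverse_bound.{0} k (max b 0) cτ (le_max_right _ _) hcτ0
  have hbr : ball (0 : E2) r ⊆ closedBall 0 r := ball_subset_closedBall
  set A : ℝ := ‖ContinuousLinearMap.mulLeftRight ℝ (E2 →L[ℝ] E2)‖ * (2 ^ k * (KI * KI)) with hA
  have hA0 : 0 ≤ A := by positivity
  set Q : ℝ := ∑ i ∈ Finset.range (k + 1), |H469.compC k (fun _ => M) (fun _ => cτ) i| with hQ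
  have hQ0 : 0 ≤ Q := Finset.sum_nonneg fun _ _ => abs_nonneg _
  set I₁ : ℝ := ‖ContinuousLinearMap.id ℝ ((E2 →L[ℝ] E2) →L[ℝ] (E2 →L[ℝ] E2))‖ with hI₁
  refine ⟨r, hr, I₁ * (2 ^ k * (A * Q)) + I₁ * (2 ^ k * (A * cR)), fun w hw => ?_⟩
  have hunit : ∀ u ∈ ball (0 : E2) r, IsUnit (fderiv ℝ (L.τ w y) u) := fun u hu =>
    isUnit_fderiv_tau L (hem w hw) (hdm w hw u (hbr hu))
  have hτs : ∀ u ∈ ball (0 : E2) r, ContDiffAt ℝ ∞ (L.τ w y) u := fun u hu =>
    tau_contDiffAt L (hem w hw) (hdm w hw u (hbr hu))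
  have hsm : ∀ u ∈ ball (0 : E2) r, ContDiffAt ℝ k (fderiv ℝ (L.τ w y)) u := fun u hu =>
    (hτs u hu).fderiv_right (m := k) (by exact_mod_cast le_top)
  have hS : CkB k r KI (fun u => Ring.inverse (fderiv ℝ (L.τ w y) u)) := by
    refine ⟨?_, ?_⟩
    · intro u hu
      obtain ⟨v, hv⟩ := hunit u hu
      have h1 : ContDiffAt ℝ k Ring.inverse (fderiv ℝ (L.τ w y) u) := by
        rw [← hv]; exact contDiffAt_ringInverse ℝ v
      exact (h1.comp u (hsm u hu)).contDiffWithinAt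
    · intro i hi u hu
      refine hKI (E2 →L[ℝ] E2) E2 (fderiv ℝ (L.τ w y)) u (hsm u hu) (hunit u hu)
        ((hb w hw u (hbr hu)).trans (le_max_left _ _)) ?_ i hi
      intro j h1 hj
      rw [norm_iteratedFDeriv_fderiv]
      exact (hKτ (j + 1) w hw u (hbr hu)).trans (leτ _ (by omega))
  have hSS : CkB k r A (fun u => conjT (Ring.inverse (fderiv ℝ (L.τ w y) u))) :=
    CkB_bilin (ContinuousLinearMap.mulLeftRight ℝ (E2 →L[ℝ] E2)) hS (CkB_star hS) hKI0 hKI0
  have hτC : H828.CkB k (fun _ => cτ) (ball (0 : E2) r) (L.τ w y) :=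
    ⟨fun u hu => ((hτs u hu).of_le (by exact_mod_cast le_top)).contDiffWithinAt,
      fun i hi u hu => (hKτ i w hw u (hbr hu)).trans (leτ _ (by omega))⟩
  have hNτ : CkB k r Q (fun u => T.N y (L.τ w y u)) := by
    have h1 := H469.CkB.comp isOpen_ball hU hN hτC (fun u hu => hτU w hw u (hbr hu))
    refine ⟨h1.1, fun i hi u hu => (h1.2 i hi u hu).trans ((le_abs_self _).trans ?_)⟩
    exact Finset.single_le_sum (f := fun i => |H469.compC k (fun _ => M) (fun _ => cτ) i|)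
      (fun _ _ => abs_nonneg _) (Finset.mem_range.mpr (Nat.lt_succ_of_le hi))
  have hRC : CkB k r cR (T.R w y) :=
    ⟨fun u hu => (((T.R_smooth w y (hem w hw)).contDiffAt
      ((isOpen_dm L w y).mem_nhds (hdm w hw u (hbr hu)))).of_le
        (by exact_mod_cast le_top)).contDiffWithinAt,
      fun i hi u hu => (hKR i w hw u (hbr hu)).trans (leR _ (by omega))⟩
  have h1 := CkB_bilin (ContinuousLinearMap.id ℝ ((E2 →L[ℝ] E2) →L[ℝ] (E2 →L[ℝ] E2)))
    hSS hNτ hA0 hQ0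
  have h2 := CkB_neg (CkB_bilin (ContinuousLinearMap.id ℝ ((E2 →L[ℝ] E2) →L[ℝ] (E2 →L[ℝ] E2)))
    hSS hRC hA0 hcR0)
  exact CkB_congr (CkB_add h1 h2) fun u hu => N_trans T (hem w hw) (hdm w hw u (hbr hu))

/-- a long step makes the disc of radius `2` fall into a given small disc -/
theorem exists_long (L : Leaf Γ X B) {r : ℝ} (hr : 0 < r) : ∃ m₀ : ℕ,
    L.t1 ≤ (m₀ : ℝ) * ts L ∧ ∀ w, ∀ u ∈ ball (0 : E2) 2,
      L.τ (L.φ ((m₀ : ℝ) * ts L) w) w u ∈ ball (0 : E2) r := by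
  have hts := ts_pos L
  have hχ := L.χ_pos
  obtain ⟨m₁, hm₁⟩ : ∃ m₁ : ℕ, cc L 1 * Real.exp (-L.χ * ((m₁ : ℝ) * ts L)) * 2 < r := by
    have h1 : Tendsto (fun m : ℕ => cc L 1 * Real.exp (-L.χ * ((m : ℝ) * ts L)) * 2) atTop
        (𝓝 (cc L 1 * 0 * 2)) := by
      refine (Tendsto.const_mul _ (Real.tendsto_exp_atBot.comp ?_)).mul_const _
      have h2 : Tendsto (fun m : ℕ => (m : ℝ) * ts L) atTop atTop :=
        tendsto_natCast_atTop_atTop.atTop_mul_const hts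
      exact h2.const_mul_atTop_of_neg (by linarith)
    rw [mul_zero, zero_mul] at h1
    exact (h1.eventually (gt_mem_nhds hr)).exists
  refine ⟨m₁ + 1, ?_, fun w u hu => ?_⟩
  · have := H469.t1_le_mul (L := L) m₁
    exact this
  · set t : ℝ := ((m₁ + 1 : ℕ) : ℝ) * ts L with ht
    have htt : L.t1 ≤ t := H469.t1_le_mul (L := L) m₁
    have h3 : ∀ v ∈ ball (0 : E2) 3, ‖fderiv ℝ (L.τ (L.φ t w) w) v‖ ≤
        cc L 1 * Real.exp (-L.χ * t) := fun v hv => by
      have := contract_cc L le_rfl htt w hv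
      rwa [norm_iteratedFDeriv_one] at this
    have h4 := (convex_ball (0 : E2) 3).norm_image_sub_le_of_norm_fderiv_le (𝕜 := ℝ)
      (f := L.τ (L.φ t w) w) (C := cc L 1 * Real.exp (-L.χ * t))
      (fun v hv => ((tau_step_smooth L htt w).contDiffAt (isOpen_ball.mem_nhds hv)).differentiableAt
        (by simp)) h3 (mem_ball_self (by norm_num)) (ball_two_three hu)
    rw [H469.tau_step_zero, sub_zero, sub_zero] at h4
    have h5 : Real.exp (-L.χ * t) ≤ Real.exp (-L.χ * ((m₁ : ℝ) * ts L)) := by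
      apply Real.exp_le_exp.2
      rw [ht]
      push_cast
      nlinarith
    have h6 : 0 ≤ cc L 1 := zero_le_one.trans (one_le_cc L 1)
    have h7 : ‖u‖ ≤ 2 := by
      rw [mem_ball_zero_iff] at hu; exact hu.le
    rw [mem_ball_zero_iff]
    calc ‖L.τ (L.φ t w) w u‖ ≤ cc L 1 * Real.exp (-L.χ * t) * ‖u‖ := h4
      _ ≤ cc L 1 * Real.exp (-L.χ * ((m₁ : ℝ) * ts L)) * 2 := by gcongr
      _ < r := hm₁

/-- bounds on the small disc below give bounds on the disc of radius `2` above -/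
theorem exists_bound_step (T : Tens L) (k : ℕ) {t r C : ℝ} (ht : L.t1 ≤ t)
    (hτ : ∀ w, ∀ u ∈ ball (0 : E2) 2, L.τ (L.φ t w) w u ∈ ball (0 : E2) r) :
    ∃ C' : ℝ, ∀ w, CkB k r C (T.N w) → CkB k 2 C' (T.N (L.φ t w)) := by
  obtain ⟨c, hc, hS⟩ := conjT_CkB L k t
  obtain ⟨c', hc', hR⟩ := R_CkB T k t
  have htt : t ∈ Icc L.t1 t := ⟨ht, le_rfl⟩
  set Q : ℝ := ∑ i ∈ Finset.range (k + 1), |H469.compC k (fun _ => C) (cc L) i| with hQ
  have hQ0 : 0 ≤ Q := Finset.sum_nonneg fun _ _ => abs_nonneg _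
  set I₁ : ℝ := ‖ContinuousLinearMap.id ℝ ((E2 →L[ℝ] E2) →L[ℝ] (E2 →L[ℝ] E2))‖ with hI₁
  refine ⟨I₁ * (2 ^ k * (c * Q)) + I₁ * (2 ^ k * (c * c')), fun w hw => ?_⟩
  have hτC : H828.CkB k (cc L) (ball (0 : E2) 2) (L.τ (L.φ t w) w) := by
    refine ⟨((tau_step_smooth L ht w).mono ball_two_three).of_le (by exact_mod_cast le_top),
      fun i hi u hu => ?_⟩
    rcases Nat.eq_zero_or_pos i with rfl | hi0
    · rw [norm_iteratedFDeriv_zero]
      have h1 := tau_step_mem L ht w (ball_subset_closedBall (ball_two_three hu))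
      rw [mem_ball_zero_iff] at h1
      exact h1.le.trans (one_le_cc L 0)
    · exact norm_iteratedFDeriv_tau_step_le L hi0 ht w (ball_two_three hu)
  have hN : CkB k 2 Q (fun u => T.N w (L.τ (L.φ t w) w u)) := by
    have h1 := H469.CkB.comp isOpen_ball isOpen_ball (CkB_iff.1 hw) hτC (fun u hu => hτ w u hu)
    refine ⟨h1.1, fun i hi u hu => (h1.2 i hi u hu).trans ((le_abs_self _).trans ?_)⟩
    exact Finset.single_le_sum (f := fun i => |H469.compC k (fun _ => C) (cc L) i|)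
      (fun _ _ => abs_nonneg _) (Finset.mem_range.mpr (Nat.lt_succ_of_le hi))
  have h1 := CkB_bilin (ContinuousLinearMap.id ℝ ((E2 →L[ℝ] E2) →L[ℝ] (E2 →L[ℝ] E2)))
    (hS w t htt) hN hc hQ0
  have h2 := CkB_neg (CkB_bilin (ContinuousLinearMap.id ℝ ((E2 →L[ℝ] E2) →L[ℝ] (E2 →L[ℝ] E2)))
    (hS w t htt) (hR w t htt) hc hc')
  exact CkB_congr (CkB_add h1 h2) fun u hu => N_step T ht w (ball_two_three hu)

/-- **First half of the dichotomy.** -/
theorem uniform_of_not_rough (T : Tens L) : ∃ k₁ : ℕ, ∀ k ≥ k₁, ¬ Rough T (k + 1) →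
    ∃ C : ℝ, ∀ x, CkB k 2 C (T.N x) := by
  obtain ⟨k₁, hk₁⟩ := N_R T (le_refl (0 : ℝ))
  refine ⟨k₁, fun k hk hro => ?_⟩
  obtain ⟨Cr, hCr1, hCr⟩ := hk₁ (k + 1) (by omega)
  unfold Rough at hro
  push Not at hro
  obtain ⟨y, O, hO, hO3, ⟨u₀, hu₀⟩, hsm⟩ := hro
  obtain ⟨ε, hε, hεO⟩ := Metric.isOpen_iff.1 hO u₀ hu₀
  set K : Set E2 := closedBall u₀ (ε / 3) with hK
  set U : Set E2 := ball u₀ (ε / 2) with hU
  have hKc : IsCompact K := isCompact_closedBall _ _
  have hKU : K ⊆ U := closedBall_subset_ball (by linarith)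
  have hUO : closedBall u₀ (ε / 2) ⊆ O := (closedBall_subset_ball (by linarith)).trans hεO
  have hUO' : U ⊆ O := ball_subset_closedBall.trans hUO
  have hU3 : U ⊆ ball 0 3 := hUO'.trans hO3
  -- bound of `N y` on `U`
  obtain ⟨M, hM⟩ : ∃ M : ℝ, H828.CkB (k + 1) (fun _ => M) U (T.N y) := by
    have h1 : ∀ i : ℕ, ∃ M : ℝ, i ≤ k + 1 → ∀ u ∈ closedBall u₀ (ε / 2),
        ‖iteratedFDeriv ℝ i (T.N y) u‖ ≤ M := fun i => by
      by_cases hi : i ≤ k + 1
      · have h2 : ContinuousOn (iteratedFDeriv ℝ i (T.N y)) (closedBall u₀ (ε / 2)) := by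
          intro u hu
          have h3 : ContDiffAt ℝ (k + 1 : ℕ) (T.N y) u := (hsm u (hUO hu)).contDiffAt
            (hO.mem_nhds (hUO hu))
          exact (h3.continuousAt_iteratedFDeriv (by exact_mod_cast hi)).continuousWithinAt
        obtain ⟨M, hM⟩ := (isCompact_closedBall u₀ (ε / 2)).exists_bound_of_continuousOn h2
        exact ⟨M, fun _ => hM⟩
      · exact ⟨0, fun h => absurd h hi⟩
    choose M hM using h1
    refine ⟨∑ i ∈ Finset.range (k + 2), |M i|, (hsm.mono hUO'), fun i hi u hu => ?_⟩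
    refine (hM i hi u (ball_subset_closedBall hu)).trans ((le_abs_self _).trans ?_)
    exact Finset.single_le_sum (f := fun i => |M i|) (fun _ _ => abs_nonneg _)
      (Finset.mem_range.mpr (Nat.lt_succ_of_le hi))
  have hts := ts_pos L
  obtain ⟨r, hr, C₀, hC₀⟩ := exists_bound_near T (k + 1) y hKc isOpen_ball hKU hU3 hM
    (|L.lv y| + ts L)
  obtain ⟨m₀, hm₀, hτ⟩ := exists_long L hr
  obtain ⟨C₁, hC₁⟩ := exists_bound_step T (k + 1) (C := C₀) hm₀ hτ
  refine ⟨Cr * max C₁ 1, fun x => ?_⟩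
  -- approximation
  have happ : ∀ n : ℕ, ∃ (g : Γ) (z : X), L.em z = L.em y ∧ L.ep z ∈ L.e y '' K ∧
      L.lv y + (m₀ : ℝ) * ts L ≤ L.lv z ∧ g • z ∈ ball x (1 / ((n : ℝ) + 1)) := fun n => by
    obtain ⟨g, z, h1, h2, h3, h4⟩ := L.dense_leaf y (ball u₀ (ε / 3)) isOpen_ball
      ((ball_subset_closedBall.trans hKU).trans hU3) ⟨u₀, mem_ball_self (by positivity)⟩
      (L.lv y + (m₀ : ℝ) * ts L) (ball x (1 / ((n : ℝ) + 1))) isOpen_ball
      ⟨x, mem_ball_self (by positivity)⟩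
    exact ⟨g, z, h1, image_mono ball_subset_closedBall h2, h3, h4⟩
  choose g z hem hep hlv hgz using happ
  have hlim : Tendsto (fun n => g n • z n) atTop (𝓝 x) := by
    rw [tendsto_iff_dist_tendsto_zero]
    refine squeeze_zero (fun n => dist_nonneg) (fun n => (mem_ball.1 (hgz n)).le) ?_
    exact tendsto_one_div_add_atTop_nhds_zero_nat
  have hbd : ∀ n, CkB (k + 1) 2 (Cr * max C₁ 1) (T.N (z n)) := fun n => by
    set a : ℝ := (L.lv (z n) - L.lv y) / ts L with ha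
    have ha0 : (m₀ : ℝ) ≤ a := by
      rw [ha, le_div_iff₀ hts]; linarith [hlv n]
    have ha0' : 0 ≤ a := (Nat.cast_nonneg _).trans ha0
    set m : ℕ := ⌊a⌋₊ with hm
    have hmm : m₀ ≤ m := Nat.le_floor ha0
    have hm1 : (m : ℝ) ≤ a := Nat.floor_le ha0'
    have hm2 : a < m + 1 := Nat.lt_floor_add_one a
    have hm1' : (m : ℝ) * ts L ≤ L.lv (z n) - L.lv y := by
      rw [ha, le_div_iff₀ hts] at hm1; exact hm1
    have hm2' : L.lv (z n) - L.lv y < ((m : ℝ) + 1) * ts L := by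
      rw [ha, div_lt_iff₀ hts] at hm2; exact hm2
    set w : X := L.φ (-((m : ℝ) * ts L)) (z n) with hw
    have hwlv : L.lv w = L.lv (z n) - (m : ℝ) * ts L := by
      rw [hw, L.lv_φ]; ring
    have hwW : w ∈ Wset L y K (|L.lv y| + ts L) := by
      refine ⟨⟨?_, ?_⟩, ?_⟩
      · show L.em w = L.em y
        rw [hw, L.em_φ]; exact hem n
      · show L.ep w ∈ L.e y '' K
        rw [hw, H469.ep_φ]; exact hep n
      · rw [hwlv, abs_le]
        have h1 := neg_abs_le (L.lv y)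
        have h2 := le_abs_self (L.lv y)
        constructor <;> nlinarith
    have h1 := hC₁ w (hC₀ w hwW)
    have h2 : CkB (k + 1) 2 (max C₁ 1 * Real.exp (0 * ((m - m₀ : ℕ) : ℝ)))
        (T.N (L.φ ((m₀ : ℝ) * ts L) w)) := by
      rw [zero_mul, Real.exp_zero, mul_one]
      exact h1.mono le_rfl le_rfl (le_max_left _ _)
    have h3 := hCr (L.φ ((m₀ : ℝ) * ts L) w) (m - m₀) (max C₁ 1) (le_max_right _ _) h2 0
      (Nat.zero_le _)
    have h4 : stp L (L.φ ((m₀ : ℝ) * ts L) w) (m - m₀) 0 = z n := by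
      unfold stp
      rw [← L.φ_add, hw, ← L.φ_add, Nat.cast_sub hmm]
      have : (((m : ℝ) - m₀ - ((0 : ℕ) : ℝ)) * ts L + (m₀ : ℝ) * ts L) + -((m : ℝ) * ts L) = 0 := by
        push_cast; ring
      rw [this, L.φ_zero]
    rw [h4, zero_mul, Real.exp_zero, mul_one] at h3
    exact h3
  exact (ck_pointwise hbd fun u hu => tendsto_N T hlim (v := fun _ => u) tendsto_const_nhds
    (ball_two_three hu)).1

end Vale.Agent.P207.N3.H283
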